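import Vale.Agent.Mem.MainC
import Vale.Agent.Mem.Exists

/-!
# P309: learners with `O(d ^ 2)` bits need `Ω(d log (1 / ε))` samples (noiseless Gaussian linear
regression)
-/

open MeasureTheory ProbabilityTheory Vale.Agent.Mem

namespace Vale.Agent.Results.P309.MemorySampleBound

/-- **Memory-sample lower bound.** The uniform probability measure on the unit sphere exists, and for
every constant `A > 0` there are `c > 0`, `ε₀ > 0` and `d₀` such that for `d ≥ d₀`, `M ≤ A d ^ 2`,
`0 < ε ≤ ε₀`: every learner with at most `2 ^ M` states and horizon `T` which succeeds at accuracy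
`ε` (with probability at least `2 / 3`, for a uniformly random unit signal, standard Gaussian rows
and exact labels) satisfies `c * d * log (1 / ε) ≤ T`. -/
theorem result :
    (∀ d : ℕ, 1 ≤ d → ∃ μ : Measure (E d), IsUniformSphere d μ) ∧
    ∀ A : ℝ, 0 < A → ∃ c ε₀ : ℝ, 0 < c ∧ 0 < ε₀ ∧ ∃ d₀ : ℕ,
      ∀ d : ℕ, d₀ ≤ d → ∀ M T : ℕ, (M : ℝ) ≤ A * (d : ℝ) ^ 2 → ∀ ε : ℝ, 0 < ε → ε ≤ ε₀ →
      ∀ (Ω : Type) [MeasurableSpace Ω] (P : Measure Ω) [IsProbabilityMeasure P]
        (μ : Measure (E d)), IsUniformSphere d μ →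
      ∀ (Z : Type) [Fintype Z], Fintype.card Z ≤ 2 ^ M →
      ∀ L : Learner d Ω Z, L.Succeeds P μ T ε → c * d * Real.log (1 / ε) ≤ T :=
  ⟨exists_isUniformSphere, lower_bound⟩

end Vale.Agent.Results.P309.MemorySampleBound
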